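import Mathlib

/-!
The suspension category `Susp G` of a group (monoid) `G`: three objects `south`, `north`, `mid`,
one morphism `south ⟶ mid`, one morphism `north ⟶ mid`, and `End mid = G` with `f ≫ g = f * g`.
Its nerve is the unreduced suspension of the nerve of `G`.
-/

namespace Vale.Agent.P178.H676

open CategoryTheory

universe v u w

/-- the objects of the suspension category of `G` -/
inductive Susp (G : Type u) : Type u
  | south : Susp G
  | north : Susp G
  | mid : Susp G

namespace Susp

/-- the morphisms of the suspension category of `G` -/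
inductive Hom (G : Type u) : Susp G → Susp G → Type u
  | idS : Hom G south south
  | idN : Hom G north north
  | toS : Hom G south mid
  | toN : Hom G north mid
  | el (g : G) : Hom G mid mid

/-- the identity morphisms -/
protected def idm {G : Type u} [Monoid G] : ∀ x : Susp G, Hom G x x
  | .south => .idS
  | .north => .idN
  | .mid => .el 1

/-- the composition -/
protected def compm {G : Type u} [Monoid G] :
    ∀ {x y z : Susp G}, Hom G x y → Hom G y z → Hom G x z
  | _, _, _, .idS, f => f
  | _, _, _, .idN, f => f
  | _, _, _, .toS, .el _ => .toS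
  | _, _, _, .toN, .el _ => .toN
  | _, _, _, .el g, .el h => .el (g * h)

instance (G : Type u) [Monoid G] : Category.{u} (Susp G) where
  Hom := Hom G
  id := Susp.idm
  comp := Susp.compm
  id_comp f := by
    cases f <;> first | rfl | exact congrArg Hom.el (one_mul _)
  comp_id f := by
    cases f <;> first | rfl | exact congrArg Hom.el (mul_one _)
  assoc f g h := by
    cases f <;> cases g <;> cases h <;> first | rfl | exact congrArg Hom.el (mul_assoc _ _ _)

section

variable {G : Type u} [Monoid G]

/-- the element of `G` as an endomorphism of `mid` -/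
def el (g : G) : (mid : Susp G) ⟶ mid := Hom.el g

variable (G) in
/-- the morphism `south ⟶ mid` -/
def toS : (south : Susp G) ⟶ mid := Hom.toS

variable (G) in
/-- the morphism `north ⟶ mid` -/
def toN : (north : Susp G) ⟶ mid := Hom.toN

theorem el_comp (g h : G) : el g ≫ el h = el (g * h) := rfl

theorem el_one : el (1 : G) = 𝟙 (mid : Susp G) := rfl

theorem toS_comp (g : G) : toS G ≫ el g = toS G := rfl

theorem toN_comp (g : G) : toN G ≫ el g = toN G := rfl

/-- the element of `G` of a morphism (`1` unless it is an endomorphism of `mid`) -/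
def val : ∀ {x y : Susp G}, (x ⟶ y) → G
  | _, _, .el g => g
  | _, _, .idS => 1
  | _, _, .idN => 1
  | _, _, .toS => 1
  | _, _, .toN => 1

@[simp] theorem val_el (g : G) : val (el g) = g := rfl

/-- case distinction -/
theorem hom_cases {motive : ∀ {x y : Susp G}, (x ⟶ y) → Prop}
    (hS : motive (𝟙 (south : Susp G))) (hN : motive (𝟙 (north : Susp G)))
    (hs : motive (toS G)) (hn : motive (toN G)) (hel : ∀ g : G, motive (el g))
    {x y : Susp G} (f : x ⟶ y) : motive f :=
  match x, y, f with
  | _, _, .idS => hS
  | _, _, .idN => hN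
  | _, _, .toS => hs
  | _, _, .toN => hn
  | _, _, .el g => hel g

theorem hom_ext : ∀ {x y : Susp G} {f g : x ⟶ y} (_ : val f = val g), f = g
  | _, _, .idS, .idS, _ => rfl
  | _, _, .idN, .idN, _ => rfl
  | _, _, .toS, .toS, _ => rfl
  | _, _, .toN, .toN, _ => rfl
  | _, _, .el _, .el _, h => congrArg Hom.el h

theorem heq_of {x y x' y' : Susp G} {f : x ⟶ y} {g : x' ⟶ y'} (hx : x = x') (hy : y = y')
    (h : val f = val g) : HEq f g := by
  subst hx; subst hy
  exact heq_of_eq (hom_ext h)

theorem functor_ext {J : Type w} [Category.{v} J] {F F' : J ⥤ Susp G}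
    (h : ∀ i, F.obj i = F'.obj i) (h' : ∀ i j (f : i ⟶ j), val (F.map f) = val (F'.map f)) :
    F = F' :=
  Functor.hext h fun i j f => heq_of (h i) (h j) (h' i j f)

end

/-! ### Functors from the suspension category -/

section Lift

variable {G : Type u} [Monoid G] {C : Type w} [Category.{v} C]

/-- the data of a functor from `Susp G` -/
structure Data (G : Type u) [Monoid G] (C : Type w) [Category.{v} C] where
  /-- the image of `south` -/
  S : C
  /-- the image of `north` -/
  N : C
  /-- the image of `mid` -/
  P : C
  /-- the image of `toS` -/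
  s : S ⟶ P
  /-- the image of `toN` -/
  n : N ⟶ P
  /-- the action of `G` -/
  ρ : G → (P ⟶ P)
  ρ_one : ρ 1 = 𝟙 P
  ρ_mul : ∀ g h, ρ (g * h) = ρ g ≫ ρ h
  s_ρ : ∀ g, s ≫ ρ g = s
  n_ρ : ∀ g, n ≫ ρ g = n

/-- the functor on objects -/
def Data.obj (D : Data G C) : Susp G → C
  | .south => D.S
  | .north => D.N
  | .mid => D.P

/-- the functor on morphisms -/
def Data.map (D : Data G C) : ∀ {x y : Susp G}, (x ⟶ y) → (D.obj x ⟶ D.obj y)
  | _, _, .idS => 𝟙 D.S
  | _, _, .idN => 𝟙 D.N
  | _, _, .toS => D.s
  | _, _, .toN => D.n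
  | _, _, .el g => D.ρ g

/-- the functor from `Susp G` -/
def Data.functor (D : Data G C) : Susp G ⥤ C where
  obj := D.obj
  map := D.map
  map_id x := by
    cases x
    · rfl
    · rfl
    · exact D.ρ_one
  map_comp {x y z} f g :=
    match x, y, z, f, g with
    | _, _, _, .idS, .idS => (Category.id_comp (𝟙 D.S)).symm
    | _, _, _, .idS, .toS => (Category.id_comp D.s).symm
    | _, _, _, .idN, .idN => (Category.id_comp (𝟙 D.N)).symm
    | _, _, _, .idN, .toN => (Category.id_comp D.n).symm
    | _, _, _, .toS, .el g => (D.s_ρ g).symm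
    | _, _, _, .toN, .el g => (D.n_ρ g).symm
    | _, _, _, .el g, .el h => D.ρ_mul g h

@[simp] theorem Data.functor_south (D : Data G C) : D.functor.obj south = D.S := rfl
@[simp] theorem Data.functor_north (D : Data G C) : D.functor.obj north = D.N := rfl
@[simp] theorem Data.functor_mid (D : Data G C) : D.functor.obj mid = D.P := rfl
@[simp] theorem Data.functor_toS (D : Data G C) : D.functor.map (toS G) = D.s := rfl
@[simp] theorem Data.functor_toN (D : Data G C) : D.functor.map (toN G) = D.n := rfl
@[simp] theorem Data.functor_el (D : Data G C) (g : G) : D.functor.map (el g) = D.ρ g := rfl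

/-- restriction along a homomorphism -/
def Data.comap {H : Type*} [Monoid H] (D : Data H C) (φ : G →* H) : Data G C where
  S := D.S
  N := D.N
  P := D.P
  s := D.s
  n := D.n
  ρ g := D.ρ (φ g)
  ρ_one := by rw [map_one, D.ρ_one]
  ρ_mul g h := by rw [map_mul, D.ρ_mul]
  s_ρ g := D.s_ρ _
  n_ρ g := D.n_ρ _

/-- push forward along a functor -/
def Data.post {C' : Type*} [Category* C'] (D : Data G C) (F : C ⥤ C') : Data G C' where
  S := F.obj D.S
  N := F.obj D.N
  P := F.obj D.P
  s := F.map D.s
  n := F.map D.n
  ρ g := F.map (D.ρ g)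
  ρ_one := by rw [D.ρ_one, F.map_id]
  ρ_mul g h := by rw [D.ρ_mul, F.map_comp]
  s_ρ g := by rw [← F.map_comp, D.s_ρ]
  n_ρ g := by rw [← F.map_comp, D.n_ρ]

/-- two functors from `Susp G` are equal if they agree on objects and on the generators -/
theorem functor_ext' {F F' : Susp G ⥤ C} (hS : F.obj south = F'.obj south)
    (hN : F.obj north = F'.obj north) (hP : F.obj mid = F'.obj mid)
    (hs : F.map (toS G) ≍ F'.map (toS G)) (hn : F.map (toN G) ≍ F'.map (toN G))
    (hρ : ∀ g : G, F.map (el g) ≍ F'.map (el g)) : F = F' := by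
  refine Functor.hext ?_ ?_
  · intro x
    cases x
    · exact hS
    · exact hN
    · exact hP
  · intro x y f
    refine hom_cases (motive := fun f => F.map f ≍ F'.map f) ?_ ?_ hs hn hρ f
    · rw [F.map_id, F'.map_id, hS]
    · rw [F.map_id, F'.map_id, hN]

theorem Data.post_functor {C' : Type*} [Category* C'] (D : Data G C) (F : C ⥤ C') :
    (D.post F).functor = D.functor ⋙ F := by
  refine functor_ext' rfl rfl rfl ?_ ?_ ?_
  · exact HEq.rfl
  · exact HEq.rfl
  · intro g; exact HEq.rfl

end Lift

section Map

variable {G : Type u} [Monoid G] {C : Type w} [Category.{v} C]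

/-- the functor given by a homomorphism -/
def map {H : Type v} [Monoid H] (φ : G →* H) : Susp G ⥤ Susp H :=
  Data.functor
    { S := south, N := north, P := mid, s := toS H, n := toN H, ρ := fun g => el (φ g)
      ρ_one := by rw [map_one]; rfl
      ρ_mul := fun g h => by rw [map_mul]; rfl
      s_ρ := fun _ => rfl
      n_ρ := fun _ => rfl }

@[simp] theorem map_south {H : Type v} [Monoid H] (φ : G →* H) :
    (map φ).obj south = south := rfl
@[simp] theorem map_north {H : Type v} [Monoid H] (φ : G →* H) :
    (map φ).obj north = north := rfl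
@[simp] theorem map_mid {H : Type v} [Monoid H] (φ : G →* H) :
    (map φ).obj mid = mid := rfl
@[simp] theorem map_toS {H : Type v} [Monoid H] (φ : G →* H) :
    (map φ).map (toS G) = toS H := rfl
@[simp] theorem map_toN {H : Type v} [Monoid H] (φ : G →* H) :
    (map φ).map (toN G) = toN H := rfl
@[simp] theorem map_el {H : Type v} [Monoid H] (φ : G →* H) (g : G) :
    (map φ).map (el g) = el (φ g) := rfl

theorem Data.map_comp_functor {H : Type v} [Monoid H] (D : Data H C) (φ : G →* H) :
    Susp.map φ ⋙ D.functor = (D.comap φ).functor := by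
  refine functor_ext' rfl rfl rfl ?_ ?_ ?_
  · exact HEq.rfl
  · exact HEq.rfl
  · intro g; exact HEq.rfl

end Map

end Susp

end Vale.Agent.P178.H676
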