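import Vale.Agent.P178.H676.Chn

/-!
Naturality of the suspension of bar chains, and values of cochains.
-/

namespace Vale.Agent.P178.H676

open CategoryTheory Simplicial Opposite H873 H911 H924

section

universe v u

variable {C D : Type u} [Category.{v} C] [Category.{v} D] (F : C ⥤ D)

set_option backward.defeqAttrib.useBackward true in
set_option backward.isDefEq.respectTransparency false in
theorem nerveMap_mk₄ {X₀ X₁ X₂ X₃ X₄ : C} (f : X₀ ⟶ X₁) (g : X₁ ⟶ X₂) (h : X₂ ⟶ X₃)
    (i : X₃ ⟶ X₄) : (nerveMap F).app (op ⦋4⦌) (ComposableArrows.mk₄ f g h i) =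
      ComposableArrows.mk₄ (F.map f) (F.map g) (F.map h) (F.map i) :=
  ComposableArrows.ext₄ rfl rfl rfl rfl rfl (by simp [nerveMap_app])
    (by simp [nerveMap_app]; rfl) (by simp [nerveMap_app]; rfl) (by simp [nerveMap_app]; rfl)

end

variable {G H : Type} [Group G] [Group H]

/-- the simplex from the south pole -/
def sS (g h k : G) : (nerve (Susp G)) _⦋4⦌ :=
  ComposableArrows.mk₄ (Susp.toS G) (Susp.el g) (Susp.el h) (Susp.el k)

/-- the simplex from the north pole -/
def sN (g h k : G) : (nerve (Susp G)) _⦋4⦌ :=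
  ComposableArrows.mk₄ (Susp.toN G) (Susp.el g) (Susp.el h) (Susp.el k)

theorem Cn_false_B3 (g h k : G) : Cn false (B3 g h k) = sS g h k := by
  refine Susp.simplex_ext ?_ ?_
  · intro i
    fin_cases i <;> rfl
  · intro i j hij
    fin_cases i <;> fin_cases j <;> first | rfl | (exact absurd hij (by decide))

theorem Cn_true_B3 (g h k : G) : Cn true (B3 g h k) = sN g h k := by
  refine Susp.simplex_ext ?_ ?_
  · intro i
    fin_cases i <;> rfl
  · intro i j hij
    fin_cases i <;> fin_cases j <;> first | rfl | (exact absurd hij (by decide))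

theorem Sig_single (g h k : G) (n : ℤ) : Sig G (Finsupp.single (g, h, k) n) =
    Finsupp.single (sS g h k) n - Finsupp.single (sN g h k) n := by
  rw [Sig_apply, mu3, mp_single, CnC, CnC, mp_single, mp_single, Cn_false_B3, Cn_true_B3]

/-- the induced map on bar chains -/
noncomputable def bpush (φ : G →* H) : (G × G × G →₀ ℤ) →+ (H × H × H →₀ ℤ) :=
  mp fun x => (φ x.1, φ x.2.1, φ x.2.2)

theorem bpush_single (φ : G →* H) (g h k : G) (n : ℤ) :
    bpush φ (Finsupp.single (g, h, k) n) = Finsupp.single (φ g, φ h, φ k) n := by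
  rw [bpush, mp_single]

/-- naturality -/
theorem spush_Sig (φ : G →* H) (c : G × G × G →₀ ℤ) :
    spush (nerveMap (Susp.map φ)) 4 (Sig G c) = Sig H (bpush φ c) := by
  induction c using Finsupp.induction_linear with
  | zero => simp
  | add a b ha hb => simp only [map_add, ha, hb]
  | single p n =>
    obtain ⟨g, h, k⟩ := p
    rw [bpush_single, Sig_single, Sig_single, map_sub, spush_single, spush_single, sS, sN,
      nerveMap_mk₄, nerveMap_mk₄]
    rfl

/-- the image in a category -/
theorem spush_functor {C : Type} [Category.{0} C] (D : Susp.Data G C) (g h k : G) (n : ℤ) :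
    spush (nerveMap D.functor) 4 (Sig G (Finsupp.single (g, h, k) n)) =
      Finsupp.single (ComposableArrows.mk₄ D.s (D.ρ g) (D.ρ h) (D.ρ k)) n -
      Finsupp.single (ComposableArrows.mk₄ D.n (D.ρ g) (D.ρ h) (D.ρ k)) n := by
  rw [Sig_single, map_sub, spush_single, spush_single, sS, sN, nerveMap_mk₄, nerveMap_mk₄]
  rfl

end Vale.Agent.P178.H676
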