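import Vale.Agent.P178.H676.Nv

/-!
Bar simplices in the nerve of the suspension category and their faces.
-/

namespace Vale.Agent.P178.H676

open CategoryTheory Simplicial Opposite

universe u

variable {G : Type u} [Monoid G]

open Susp

/-- bar simplices -/
def B1 (g : G) : (nerve (Susp G)) _⦋1⦌ := ComposableArrows.mk₁ (el g)
/-- bar simplices -/
def B2 (g h : G) : (nerve (Susp G)) _⦋2⦌ := ComposableArrows.mk₂ (el g) (el h)
/-- bar simplices -/
def B3 (g h k : G) : (nerve (Susp G)) _⦋3⦌ := ComposableArrows.mk₃ (el g) (el h) (el k)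
/-- bar simplices -/
def B4 (g h k l : G) : (nerve (Susp G)) _⦋4⦌ := ComposableArrows.mk₄ (el g) (el h) (el k) (el l)

theorem δ0_B2 (g h : G) : (nerve (Susp G)).δ 0 (B2 g h) = B1 h := by
  rfl

theorem δ1_B2 (g h : G) : (nerve (Susp G)).δ 1 (B2 g h) = B1 (g * h) := by
  refine simplex_ext ?_ ?_
  · intro i
    fin_cases i <;> rfl
  · intro i j hij
    fin_cases i <;> fin_cases j <;>
      first | rfl | (exact mul_assoc _ _ _) | (exact (mul_assoc _ _ _).symm) |
        (exact absurd hij (by decide))

theorem δ2_B2 (g h : G) : (nerve (Susp G)).δ 2 (B2 g h) = B1 g := by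
  refine simplex_ext ?_ ?_
  · intro i
    fin_cases i <;> rfl
  · intro i j hij
    fin_cases i <;> fin_cases j <;>
      first | rfl | (exact mul_assoc _ _ _) | (exact (mul_assoc _ _ _).symm) |
        (exact absurd hij (by decide))

theorem δ0_B3 (g h k : G) : (nerve (Susp G)).δ 0 (B3 g h k) = B2 h k := by
  rfl

theorem δ1_B3 (g h k : G) : (nerve (Susp G)).δ 1 (B3 g h k) = B2 (g * h) k := by
  refine simplex_ext ?_ ?_
  · intro i
    fin_cases i <;> rfl
  · intro i j hij
    fin_cases i <;> fin_cases j <;>
      first | rfl | (exact mul_assoc _ _ _) | (exact (mul_assoc _ _ _).symm) |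
        (exact absurd hij (by decide))

theorem δ2_B3 (g h k : G) : (nerve (Susp G)).δ 2 (B3 g h k) = B2 g (h * k) := by
  refine simplex_ext ?_ ?_
  · intro i
    fin_cases i <;> rfl
  · intro i j hij
    fin_cases i <;> fin_cases j <;>
      first | rfl | (exact mul_assoc _ _ _) | (exact (mul_assoc _ _ _).symm) |
        (exact absurd hij (by decide))

theorem δ3_B3 (g h k : G) : (nerve (Susp G)).δ 3 (B3 g h k) = B2 g h := by
  refine simplex_ext ?_ ?_
  · intro i
    fin_cases i <;> rfl
  · intro i j hij
    fin_cases i <;> fin_cases j <;>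
      first | rfl | (exact mul_assoc _ _ _) | (exact (mul_assoc _ _ _).symm) |
        (exact absurd hij (by decide))

theorem δ0_B4 (g h k l : G) : (nerve (Susp G)).δ 0 (B4 g h k l) = B3 h k l := by
  rfl

theorem δ1_B4 (g h k l : G) : (nerve (Susp G)).δ 1 (B4 g h k l) = B3 (g * h) k l := by
  refine simplex_ext ?_ ?_
  · intro i
    fin_cases i <;> rfl
  · intro i j hij
    fin_cases i <;> fin_cases j <;>
      first | rfl | (exact mul_assoc _ _ _) | (exact (mul_assoc _ _ _).symm) |
        (exact absurd hij (by decide))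

theorem δ2_B4 (g h k l : G) : (nerve (Susp G)).δ 2 (B4 g h k l) = B3 g (h * k) l := by
  refine simplex_ext ?_ ?_
  · intro i
    fin_cases i <;> rfl
  · intro i j hij
    fin_cases i <;> fin_cases j <;>
      first | rfl | (exact mul_assoc _ _ _) | (exact (mul_assoc _ _ _).symm) |
        (exact absurd hij (by decide)) | (exact congrArg (g * ·) (mul_assoc _ _ _).symm)

theorem δ3_B4 (g h k l : G) : (nerve (Susp G)).δ 3 (B4 g h k l) = B3 g h (k * l) := by
  refine simplex_ext ?_ ?_
  · intro i
    fin_cases i <;> rfl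
  · intro i j hij
    fin_cases i <;> fin_cases j <;>
      first | rfl | (exact mul_assoc _ _ _) | (exact (mul_assoc _ _ _).symm) |
        (exact absurd hij (by decide))

theorem δ4_B4 (g h k l : G) : (nerve (Susp G)).δ 4 (B4 g h k l) = B3 g h k := by
  refine simplex_ext ?_ ?_
  · intro i
    fin_cases i <;> rfl
  · intro i j hij
    fin_cases i <;> fin_cases j <;>
      first | rfl | (exact mul_assoc _ _ _) | (exact (mul_assoc _ _ _).symm) |
        (exact absurd hij (by decide))

end Vale.Agent.P178.H676
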