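import Vale.Agent.P178.H676.Bars
import Vale.Agent.P178.H911.BarFour
import Vale.Agent.P178.H924.Src

/-!
The simplicial chains of the nerve of the suspension category: `H₂ = H₃ = 0` for a group with
`H₁ = H₂ = 0`, and the suspension of a `3`-cycle of the bar complex.
-/

namespace Vale.Agent.P178.H676

open CategoryTheory Simplicial Opposite H873 H911 H924

variable {G : Type} [Group G]

open Susp

/-- push forward of chains along a map of simplices -/
noncomputable abbrev mp {α β : Type*} (f : α → β) : (α →₀ ℤ) →+ (β →₀ ℤ) :=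
  Finsupp.mapDomain.addMonoidHom f

theorem mp_single {α β : Type*} (f : α → β) (a : α) (n : ℤ) :
    mp f (Finsupp.single a n) = Finsupp.single (f a) n := by
  simp [mp, Finsupp.mapDomain_single]

/-- bar chains -/
noncomputable def mu1 (G : Type) [Group G] : (G →₀ ℤ) →+ SCh (nerve (Susp G)) 1 := mp B1
/-- bar chains -/
noncomputable def mu2 (G : Type) [Group G] : (G × G →₀ ℤ) →+ SCh (nerve (Susp G)) 2 :=
  mp fun x => B2 x.1 x.2
/-- bar chains -/
noncomputable def mu3 (G : Type) [Group G] : (G × G × G →₀ ℤ) →+ SCh (nerve (Susp G)) 3 :=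
  mp fun x => B3 x.1 x.2.1 x.2.2
/-- bar chains -/
noncomputable def mu4 (G : Type) [Group G] : (G × G × G × G →₀ ℤ) →+ SCh (nerve (Susp G)) 4 :=
  mp fun x => B4 x.1 x.2.1 x.2.2.1 x.2.2.2

theorem sbd_mu2 (c : G × G →₀ ℤ) : sbd (nerve (Susp G)) 1 (mu2 G c) = mu1 G (bar2 G c) := by
  induction c using Finsupp.induction_linear with
  | zero => simp
  | add a b ha hb => simp only [map_add, ha, hb]
  | single p n =>
    obtain ⟨g, h⟩ := p
    rw [mu2, mp_single, sbd_single, bar2_single]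
    simp only [map_add, map_sub, mu1, mp_single, Fin.sum_univ_succ, Fin.sum_univ_zero]
    change Finsupp.single ((nerve (Susp G)).δ 0 (B2 g h)) (n * (-1 : ℤ) ^ 0) +
      (Finsupp.single ((nerve (Susp G)).δ 1 (B2 g h)) (n * (-1 : ℤ) ^ 1) +
      (Finsupp.single ((nerve (Susp G)).δ 2 (B2 g h)) (n * (-1 : ℤ) ^ 2) + 0)) = _
    rw [δ0_B2, δ1_B2, δ2_B2]
    norm_num
    abel

theorem sbd_mu3 (c : G × G × G →₀ ℤ) :
    sbd (nerve (Susp G)) 2 (mu3 G c) = mu2 G (bar3 G c) := by
  induction c using Finsupp.induction_linear with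
  | zero => simp
  | add a b ha hb => simp only [map_add, ha, hb]
  | single p n =>
    obtain ⟨g, h, k⟩ := p
    rw [mu3, mp_single, sbd_single, bar3_single]
    simp only [map_add, map_sub, mu2, mp_single, Fin.sum_univ_succ, Fin.sum_univ_zero]
    change Finsupp.single ((nerve (Susp G)).δ 0 (B3 g h k)) (n * (-1 : ℤ) ^ 0) +
      (Finsupp.single ((nerve (Susp G)).δ 1 (B3 g h k)) (n * (-1 : ℤ) ^ 1) +
      (Finsupp.single ((nerve (Susp G)).δ 2 (B3 g h k)) (n * (-1 : ℤ) ^ 2) +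
      (Finsupp.single ((nerve (Susp G)).δ 3 (B3 g h k)) (n * (-1 : ℤ) ^ 3) + 0))) = _
    rw [δ0_B3, δ1_B3, δ2_B3, δ3_B3]
    norm_num
    abel

theorem sbd_mu4 (c : G × G × G × G →₀ ℤ) :
    sbd (nerve (Susp G)) 3 (mu4 G c) = mu3 G (bar4 G c) := by
  induction c using Finsupp.induction_linear with
  | zero => simp
  | add a b ha hb => simp only [map_add, ha, hb]
  | single p n =>
    obtain ⟨g, h, k, l⟩ := p
    rw [mu4, mp_single, sbd_single, bar4_single]
    simp only [map_add, map_sub, mu3, mp_single, Fin.sum_univ_succ, Fin.sum_univ_zero]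
    change Finsupp.single ((nerve (Susp G)).δ 0 (B4 g h k l)) (n * (-1 : ℤ) ^ 0) +
      (Finsupp.single ((nerve (Susp G)).δ 1 (B4 g h k l)) (n * (-1 : ℤ) ^ 1) +
      (Finsupp.single ((nerve (Susp G)).δ 2 (B4 g h k l)) (n * (-1 : ℤ) ^ 2) +
      (Finsupp.single ((nerve (Susp G)).δ 3 (B4 g h k l)) (n * (-1 : ℤ) ^ 3) +
      (Finsupp.single ((nerve (Susp G)).δ 4 (B4 g h k l)) (n * (-1 : ℤ) ^ 4) + 0)))) = _
    rw [δ0_B4, δ1_B4, δ2_B4, δ3_B4, δ4_B4]
    norm_num
    abel

theorem vmap_B1 (g : G) : vmap (n := 1) (B1 g) 0 1 (by decide) = g := rfl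

theorem vmap_B2 (g h : G) : vmap (n := 2) (B2 g h) 0 1 (by decide) = g := rfl

theorem vmap_B2' (g h : G) : vmap (n := 2) (B2 g h) 1 2 (by decide) = h := rfl

theorem B1_injective : Function.Injective (B1 : G → _) := fun g g' h => by
  rw [← vmap_B1 g, ← vmap_B1 g', h]

theorem B2_injective : Function.Injective (fun x : G × G => B2 x.1 x.2) := fun x y h => by
  have h : B2 x.1 x.2 = B2 y.1 y.2 := h
  refine Prod.ext ?_ ?_
  · rw [← vmap_B2 x.1 x.2, ← vmap_B2 y.1 y.2, h]
  · rw [← vmap_B2' x.1 x.2, ← vmap_B2' y.1 y.2, h]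

theorem mu2_injective : Function.Injective (mu2 G) := Finsupp.mapDomain_injective B2_injective

theorem mu1_injective : Function.Injective (mu1 G) := Finsupp.mapDomain_injective B1_injective

/-- cones of chains -/
noncomputable def CnC (G : Type) [Group G] (p : Bool) (n : ℕ) :
    SCh (nerve (Susp G)) n →+ SCh (nerve (Susp G)) (n + 1) := mp (Cn p)

/-- `Kp` on chains -/
noncomputable def KpC (G : Type) [Group G] (p : Bool) (n : ℕ) :
    SCh (nerve (Susp G)) n →+ SCh (nerve (Susp G)) n := mp (Kp p)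

theorem sbd_CnC (p : Bool) (n : ℕ) (c : SCh (nerve (Susp G)) (n + 1)) :
    sbd (nerve (Susp G)) (n + 1) (CnC G p (n + 1) c) =
      KpC G p (n + 1) c - CnC G p n (sbd (nerve (Susp G)) n c) := by
  induction c using Finsupp.induction_linear with
  | zero => simp
  | add a b ha hb => simp only [map_add, ha, hb]; abel
  | single F n =>
    rw [CnC, mp_single, sbd_single, Fin.sum_univ_succ, δ_zero_Cn, KpC, mp_single, sbd_single,
      Fin.val_zero, pow_zero, mul_one, sub_eq_add_neg]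
    congr 1
    rw [map_sum, ← Finset.sum_neg_distrib]
    refine Finset.sum_congr rfl fun i _ => ?_
    rw [δ_succ_Cn, CnC, mp_single, Fin.val_succ, pow_succ, mul_neg_one, mul_neg,
      Finsupp.single_neg]

/-- all vertices are `mid` -/
def Md {n : ℕ} (F : (nerve (Susp G)) _⦋n⦌) : Prop := ∀ i : Fin (n + 1), F.obj i = mid

theorem Md_of {n : ℕ} {F : (nerve (Susp G)) _⦋n⦌} (h1 : Av false F) (h2 : Av true F) : Md F := by
  intro i
  have h1 := h1 i
  have h2 := h2 i
  revert h1 h2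
  generalize F.obj i = x
  intro h1 h2
  cases x
  · exact absurd rfl h2
  · exact absurd rfl h1
  · rfl

theorem eq_B1 {F : (nerve (Susp G)) _⦋1⦌} (h : Md F) : B1 (vmap (n := 1) F 0 1 (by decide)) = F := by
  refine simplex_ext ?_ ?_
  · intro i
    rw [h i]
    fin_cases i <;> rfl
  · intro i j hij
    fin_cases i <;> fin_cases j <;>
      first | rfl | (exact absurd hij (by decide)) |
        (exact (vmap_id _ _ _).trans (vmap_id F _ _).symm)

theorem vmap_trans {n : ℕ} {F : (nerve (Susp G)) _⦋n⦌} (h : Md F) (i j k : Fin (n + 1))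
    (hij : i ≤ j) (hjk : j ≤ k) : vmap F i j hij * vmap F j k hjk = vmap F i k (hij.trans hjk) := by
  have h1 : vmap F i k (hij.trans hjk) = val (F.map (homOfLE hij) ≫ F.map (homOfLE hjk)) := by
    rw [← F.map_comp]; rfl
  rw [h1]
  change val _ * val _ = _
  have key : ∀ {x y z : Susp G} (f : x ⟶ y) (g : y ⟶ z), x = mid →
      val f * val g = val (f ≫ g) := by
    intro x y z f g hx
    match x, y, z, f, g with
    | _, _, _, .el g, .el h => rfl
  exact key _ _ (h i)

theorem eq_B2 {F : (nerve (Susp G)) _⦋2⦌} (h : Md F) :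
    B2 (vmap (n := 2) F 0 1 (by decide)) (vmap (n := 2) F 1 2 (by decide)) = F := by
  refine simplex_ext ?_ ?_
  · intro i
    rw [h i]
    fin_cases i <;> rfl
  · intro i j hij
    fin_cases i <;> fin_cases j <;>
      first | rfl | (exact absurd hij (by decide)) |
        (exact (vmap_id _ _ _).trans (vmap_id F _ _).symm) |
        (exact vmap_trans h 0 1 2 (by decide) (by decide))

theorem exists_mu1 {c : SCh (nerve (Susp G)) 1} (hc : ∀ F ∈ c.support, Md F) :
    ∃ b, mu1 G b = c := by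
  refine ⟨mp (fun F : (nerve (Susp G)) _⦋1⦌ => vmap (n := 1) F 0 1 (by decide)) c, ?_⟩
  change Finsupp.mapDomain _ (Finsupp.mapDomain _ c) = c
  rw [← Finsupp.mapDomain_comp]
  conv_rhs => rw [← Finsupp.mapDomain_id (v := c)]
  exact Finsupp.mapDomain_congr fun F hF => eq_B1 (hc F hF)

theorem exists_mu2 {c : SCh (nerve (Susp G)) 2} (hc : ∀ F ∈ c.support, Md F) :
    ∃ b, mu2 G b = c := by
  refine ⟨mp (fun F : (nerve (Susp G)) _⦋2⦌ => (vmap (n := 2) F 0 1 (by decide),
    vmap (n := 2) F 1 2 (by decide))) c, ?_⟩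
  change Finsupp.mapDomain _ (Finsupp.mapDomain _ c) = c
  rw [← Finsupp.mapDomain_comp]
  conv_rhs => rw [← Finsupp.mapDomain_id (v := c)]
  exact Finsupp.mapDomain_congr fun F hF => eq_B2 (hc F hF)

/-- the chains whose simplices have no vertex at the pole which is not `p` -/
def AvS (G : Type) [Group G] (p : Bool) (n : ℕ) : Submodule ℤ (SCh (nerve (Susp G)) n) :=
  Finsupp.supported ℤ ℤ {F | Av p F}

theorem mem_AvS {p : Bool} {n : ℕ} {c : SCh (nerve (Susp G)) n} :
    c ∈ AvS G p n ↔ ∀ F ∈ c.support, Av p F := by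
  rw [AvS, Finsupp.mem_supported]
  exact Iff.rfl

theorem KpC_of_mem {p : Bool} {n : ℕ} {c : SCh (nerve (Susp G)) n} (hc : c ∈ AvS G p n) :
    KpC G p n c = c := by
  change Finsupp.mapDomain _ c = c
  conv_rhs => rw [← Finsupp.mapDomain_id (v := c)]
  exact Finsupp.mapDomain_congr fun F hF => Kp_of_Av (mem_AvS.1 hc F hF)

theorem sbd_mem {p : Bool} {n : ℕ} {c : SCh (nerve (Susp G)) (n + 1)} (hc : c ∈ AvS G p (n + 1)) :
    sbd (nerve (Susp G)) n c ∈ AvS G p n := by
  rw [← Finsupp.sum_single c, Finsupp.sum, map_sum]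
  refine Submodule.sum_mem _ fun F hF => ?_
  rw [sbd_single]
  refine Submodule.sum_mem _ fun i _ => ?_
  exact Finsupp.single_mem_supported ℤ _ ((mem_AvS.1 hc F hF).δ i)

theorem mp_mem {α : Type*} {p : Bool} {n : ℕ} (f : α → (nerve (Susp G)) _⦋n⦌)
    (h : ∀ a, Av p (f a)) (c : α →₀ ℤ) : mp f c ∈ AvS G p n := by
  rw [← Finsupp.sum_single c, Finsupp.sum, map_sum]
  refine Submodule.sum_mem _ fun F hF => ?_
  rw [mp_single]
  exact Finsupp.single_mem_supported ℤ _ (h _)

/-- cycles without vertices at the other pole are boundaries -/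
theorem exists_of_mem {p : Bool} {n : ℕ} {c : SCh (nerve (Susp G)) (n + 1)}
    (hc : c ∈ AvS G p (n + 1)) (h : sbd (nerve (Susp G)) n c = 0) :
    sbd (nerve (Susp G)) (n + 1) (CnC G p (n + 1) c) = c := by
  rw [sbd_CnC, h, map_zero, sub_zero, KpC_of_mem hc]

/-- the Mayer-Vietoris argument -/
theorem exists_of_split {n : ℕ} (z : SCh (nerve (Susp G)) (n + 1))
    (hz : sbd (nerve (Susp G)) n z = 0)
    (H : ∀ w : SCh (nerve (Susp G)) n, (∀ F ∈ w.support, Md F) →
      (∀ z₁ : SCh (nerve (Susp G)) (n + 1), sbd (nerve (Susp G)) n z₁ = w →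
      ∃ v : SCh (nerve (Susp G)) (n + 1), (∀ p, v ∈ AvS G p (n + 1)) ∧
        sbd (nerve (Susp G)) n v = w)) :
    ∃ y, sbd (nerve (Susp G)) (n + 1) y = z := by
  classical
  let z₁ : SCh (nerve (Susp G)) (n + 1) := z.filter fun F => Av false F
  let z₂ : SCh (nerve (Susp G)) (n + 1) := z.filter fun F => ¬ Av false F
  have h12 : z₁ + z₂ = z := Finsupp.filter_add_filter_not z _
  have h1 : z₁ ∈ AvS G false (n + 1) := mem_AvS.2 fun F hF => by
    rw [Finsupp.support_filter, Finset.mem_filter] at hF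
    exact hF.2
  have h2 : z₂ ∈ AvS G true (n + 1) := mem_AvS.2 fun F hF => by
    rw [Finsupp.support_filter, Finset.mem_filter] at hF
    exact (Av_or F).resolve_left hF.2
  have h3 : sbd (nerve (Susp G)) n z₂ = - sbd (nerve (Susp G)) n z₁ := by
    rw [← h12, map_add] at hz
    exact (neg_eq_of_add_eq_zero_right hz).symm
  have h4 : ∀ F ∈ (sbd (nerve (Susp G)) n z₁).support, Md F := by
    intro F hF
    refine Md_of (mem_AvS.1 (sbd_mem h1) F hF) (mem_AvS.1 (sbd_mem h2) F ?_)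
    rw [h3, Finsupp.support_neg]
    exact hF
  obtain ⟨v, hv, hv'⟩ := H _ h4 z₁ rfl
  refine ⟨CnC G false (n + 1) (z₁ - v) + CnC G true (n + 1) (z₂ + v), ?_⟩
  rw [map_add, exists_of_mem (Submodule.sub_mem _ h1 (hv false)) (by rw [map_sub, hv', sub_self]),
    exists_of_mem (Submodule.add_mem _ h2 (hv true)) (by rw [map_add, hv', h3, neg_add_cancel]),
    ← h12]
  abel

/-- `H₂ = 0` -/
theorem exists_bd2 (hG : Function.Surjective (bar2 G)) (z : SCh (nerve (Susp G)) 2)
    (hz : sbd (nerve (Susp G)) 1 z = 0) : ∃ y, sbd (nerve (Susp G)) 2 y = z := by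
  refine exists_of_split z hz fun w hw _ _ => ?_
  obtain ⟨b, rfl⟩ := exists_mu1 hw
  obtain ⟨a, rfl⟩ := hG b
  refine ⟨mu2 G a, fun p => mp_mem _ (fun x i => ?_) a, sbd_mu2 a⟩
  have : (B2 x.1 x.2 : ComposableArrows (Susp G) 2).obj i = mid := by
    fin_cases i <;> rfl
  rw [this]
  cases p <;> nofun

/-- `H₃ = 0` -/
theorem exists_bd3 (hG : ∀ b, bar2 G b = 0 → ∃ a, bar3 G a = b) (z : SCh (nerve (Susp G)) 3)
    (hz : sbd (nerve (Susp G)) 2 z = 0) : ∃ y, sbd (nerve (Susp G)) 3 y = z := by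
  refine exists_of_split z hz fun w hw z₁ hz₁ => ?_
  obtain ⟨b, rfl⟩ := exists_mu2 hw
  obtain ⟨a, rfl⟩ := hG b (mu1_injective (by rw [← sbd_mu2, ← hz₁, sbd_sbd, map_zero]))
  refine ⟨mu3 G a, fun p => mp_mem _ (fun x i => ?_) a, sbd_mu3 a⟩
  have : (B3 x.1 x.2.1 x.2.2 : ComposableArrows (Susp G) 3).obj i = mid := by
    fin_cases i <;> rfl
  rw [this]
  cases p <;> nofun

/-- the suspension of a bar chain -/
noncomputable def Sig (G : Type) [Group G] : (G × G × G →₀ ℤ) →+ SCh (nerve (Susp G)) 4 :=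
  (CnC G false 3).comp (mu3 G) - (CnC G true 3).comp (mu3 G)

theorem Sig_apply (c : G × G × G →₀ ℤ) :
    Sig G c = CnC G false 3 (mu3 G c) - CnC G true 3 (mu3 G c) := rfl

theorem Md_B3 (g h k : G) : Md (B3 g h k) := fun i => by fin_cases i <;> rfl

theorem Md_B4 (g h k l : G) : Md (B4 g h k l) := fun i => by fin_cases i <;> rfl

theorem Md.av {n : ℕ} {F : (nerve (Susp G)) _⦋n⦌} (h : Md F) (p : Bool) : Av p F := by
  intro i
  rw [h i]
  cases p <;> nofun

theorem mu3_mem (p : Bool) (c : G × G × G →₀ ℤ) : mu3 G c ∈ AvS G p 3 :=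
  mp_mem _ (fun _ => (Md_B3 _ _ _).av p) c

theorem mu4_mem (p : Bool) (c : G × G × G × G →₀ ℤ) : mu4 G c ∈ AvS G p 4 :=
  mp_mem _ (fun _ => (Md_B4 _ _ _ _).av p) c

/-- the suspension of a cycle is a cycle -/
theorem sbd_Sig (c : G × G × G →₀ ℤ) (hc : bar3 G c = 0) :
    sbd (nerve (Susp G)) 3 (Sig G c) = 0 := by
  rw [Sig_apply, map_sub, sbd_CnC, sbd_CnC, sbd_mu3, hc, map_zero, map_zero, map_zero,
    KpC_of_mem (mu3_mem _ _), KpC_of_mem (mu3_mem _ _), sub_self]

/-- the suspension of a boundary is a boundary -/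
theorem Sig_bar4 (w : G × G × G × G →₀ ℤ) :
    ∃ y, sbd (nerve (Susp G)) 4 y = Sig G (bar4 G w) := by
  refine ⟨CnC G true 4 (mu4 G w) - CnC G false 4 (mu4 G w), ?_⟩
  rw [Sig_apply, map_sub, sbd_CnC, sbd_CnC, sbd_mu4, KpC_of_mem (mu4_mem _ _),
    KpC_of_mem (mu4_mem _ _)]
  abel

end Vale.Agent.P178.H676
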