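import Vale.Agent.P178.H676.Susp

/-!
Simplices of the nerve of the suspension category, cones.
-/

namespace Vale.Agent.P178.H676

open CategoryTheory Opposite

universe u

namespace Susp

section

variable {G : Type u} [Monoid G]

/-- the value of a simplex on an edge -/
def vmap {n : ℕ} (F : ComposableArrows (Susp G) n) (i j : Fin (n + 1)) (h : i ≤ j) : G :=
  val (F.map (homOfLE h))

theorem simplex_ext {n : ℕ} {F F' : ComposableArrows (Susp G) n}
    (h : ∀ i, F.obj i = F'.obj i) (h' : ∀ i j (hij : i ≤ j), vmap F i j hij = vmap F' i j hij) :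
    F = F' :=
  functor_ext h fun i j f => h' i j (leOfHom f)

/-- the poles -/
def pole (G : Type u) : Bool → Susp G
  | false => south
  | true => north

/-- the morphism from a pole -/
def toP (G : Type u) [Monoid G] : ∀ p : Bool, pole G p ⟶ mid
  | false => toS G
  | true => toN G

@[simp] theorem val_toP (p : Bool) : val (toP G p) = 1 := by cases p <;> rfl

/-- replace all poles by the pole `p` -/
def kap (p : Bool) : Susp G → Susp G
  | .south => pole G p
  | .north => pole G p
  | .mid => .mid

/-- the functor which replaces all poles by the pole `p` -/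
def kapF (G : Type u) [Monoid G] (p : Bool) : Susp G ⥤ Susp G :=
  Data.functor
    { S := pole G p, N := pole G p, P := mid, s := toP G p, n := toP G p, ρ := el
      ρ_one := rfl
      ρ_mul := fun _ _ => rfl
      s_ρ := fun g => by cases p <;> rfl
      n_ρ := fun g => by cases p <;> rfl }

theorem kapF_obj (p : Bool) (x : Susp G) : (kapF G p).obj x = kap p x := by
  cases x <;> rfl

theorem val_kapF_map (p : Bool) {x y : Susp G} (f : x ⟶ y) : val ((kapF G p).map f) = val f := by
  refine hom_cases (motive := fun f => val ((kapF G p).map f) = val f) ?_ ?_ ?_ ?_ ?_ f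
  · cases p <;> rfl
  · cases p <;> rfl
  · exact val_toP p
  · exact val_toP p
  · intro g; rfl

/-- the pole `p` is initial among the objects different from the other pole -/
def ini (p : Bool) : ∀ x : Susp G, pole G p ⟶ (kapF G p).obj x
  | .south => 𝟙 _
  | .north => 𝟙 _
  | .mid => toP G p

theorem val_ini (p : Bool) (x : Susp G) : val (ini p x) = 1 := by
  cases p <;> cases x <;> rfl

/-- the cone of a simplex -/
def cone (p : Bool) {n : ℕ} (F : ComposableArrows (Susp G) n) :
    ComposableArrows (Susp G) (n + 1) :=
  ComposableArrows.precomp (F ⋙ kapF G p) (ini p (F.obj 0))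

theorem cone_obj_zero (p : Bool) {n : ℕ} (F : ComposableArrows (Susp G) n) :
    (cone p F).obj 0 = pole G p := rfl

theorem cone_obj_succ (p : Bool) {n : ℕ} (F : ComposableArrows (Susp G) n) (i : Fin (n + 1)) :
    (cone p F).obj i.succ = (kapF G p).obj (F.obj i) := rfl

theorem vmap_id {n : ℕ} (F : ComposableArrows (Susp G) n) (i : Fin (n + 1)) (h : i ≤ i) :
    vmap F i i h = 1 := by
  have h1 : (homOfLE h : i ⟶ i) = 𝟙 _ := rfl
  rw [vmap, h1, F.map_id]
  generalize F.obj i = x
  cases x <;> rfl

theorem val_id (x : Susp G) : val (𝟙 x) = 1 := by cases x <;> rfl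

theorem val_pole {p : Bool} {y : Susp G} (f : pole G p ⟶ y) : val f = 1 := by
  cases p
  · exact match y, f with
      | _, .idS => rfl
      | _, .toS => rfl
  · exact match y, f with
      | _, .idN => rfl
      | _, .toN => rfl

theorem vmap_cone_zero (p : Bool) {n : ℕ} (F : ComposableArrows (Susp G) n) (j : Fin (n + 2))
    (h : (0 : Fin (n + 2)) ≤ j) : vmap (cone p F) 0 j h = 1 :=
  val_pole (p := p) ((cone p F).map (homOfLE h))

theorem vmap_cone_succ (p : Bool) {n : ℕ} (F : ComposableArrows (Susp G) n) (i j : Fin (n + 1))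
    (h : i.succ ≤ j.succ) :
    vmap (cone p F) i.succ j.succ h = vmap F i j (Fin.succ_le_succ_iff.1 h) :=
  val_kapF_map p (F.map (homOfLE (Fin.succ_le_succ_iff.1 h)))

end

end Susp

end Vale.Agent.P178.H676
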