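import Vale.Agent.P178.H676.Cone

/-!
Simplicial chains of the nerve of the suspension category.
-/

namespace Vale.Agent.P178.H676

open CategoryTheory Simplicial Opposite

universe u

variable {G : Type u} [Monoid G]

open Susp

theorem δ_obj' {n : ℕ} (i : Fin (n + 2)) (F : (nerve (Susp G)) _⦋n + 1⦌) (j : Fin (n + 1)) :
    ((nerve (Susp G)).δ i F).obj j = F.obj (i.succAbove j) := rfl

theorem vmap_δ {n : ℕ} (i : Fin (n + 2)) (F : (nerve (Susp G)) _⦋n + 1⦌) (j k : Fin (n + 1))
    (h : j ≤ k) : vmap ((nerve (Susp G)).δ i F) j k h =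
      vmap F (i.succAbove j) (i.succAbove k) ((Fin.strictMono_succAbove i).monotone h) := rfl

/-- the cone on simplices of the nerve -/
def Cn (p : Bool) {n : ℕ} (F : (nerve (Susp G)) _⦋n⦌) : (nerve (Susp G)) _⦋n + 1⦌ := cone p F

/-- `kap` on simplices of the nerve -/
def Kp (p : Bool) {n : ℕ} (F : (nerve (Susp G)) _⦋n⦌) : (nerve (Susp G)) _⦋n⦌ :=
  Functor.comp (C := Fin (n + 1)) F (kapF G p)

theorem Kp_obj (p : Bool) {n : ℕ} (F : (nerve (Susp G)) _⦋n⦌) (i : Fin (n + 1)) :
    (Kp p F).obj i = (kapF G p).obj (F.obj i) := rfl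

theorem vmap_Kp (p : Bool) {n : ℕ} (F : (nerve (Susp G)) _⦋n⦌) (i j : Fin (n + 1)) (h : i ≤ j) :
    vmap (Kp p F) i j h = vmap F i j h := val_kapF_map p (F.map (homOfLE h))

theorem δ_zero_Cn (p : Bool) {n : ℕ} (F : (nerve (Susp G)) _⦋n⦌) :
    (nerve (Susp G)).δ 0 (Cn p F) = Kp p F := rfl

theorem δ_succ_Cn (p : Bool) {n : ℕ} (F : (nerve (Susp G)) _⦋n + 1⦌) (i : Fin (n + 2)) :
    (nerve (Susp G)).δ i.succ (Cn p F) = Cn p ((nerve (Susp G)).δ i F) := by
  refine simplex_ext ?_ ?_
  · intro j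
    rw [δ_obj']
    refine Fin.cases ?_ (fun j => ?_) j
    · rfl
    · rw [Fin.succ_succAbove_succ]
      rfl
  · intro j k h
    rw [vmap_δ]
    revert h
    refine Fin.cases ?_ (fun j => ?_) j
    · intro h
      have h0 : i.succ.succAbove (0 : Fin (n + 2)) = 0 := Fin.succ_succAbove_zero i
      simp only [h0]
      exact (vmap_cone_zero p F _ _).trans (vmap_cone_zero p _ _ _).symm
    · refine Fin.cases ?_ (fun k => ?_) k
      · intro h
        exact absurd h (by simp)
      · intro h
        simp only [Fin.succ_succAbove_succ]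
        exact (vmap_cone_succ p F _ _ (Fin.succ_le_succ_iff.2
          ((Fin.strictMono_succAbove i).monotone (Fin.succ_le_succ_iff.1 h)))).trans
          (vmap_cone_succ p ((nerve (Susp G)).δ i F) j k h).symm

/-- all vertices of the simplex are different from the pole which is not `p` -/
def Av (p : Bool) {n : ℕ} (F : (nerve (Susp G)) _⦋n⦌) : Prop :=
  ∀ i : Fin (n + 1), F.obj i ≠ pole G (!p)

theorem Kp_of_Av {p : Bool} {n : ℕ} {F : (nerve (Susp G)) _⦋n⦌} (h : Av p F) : Kp p F = F := by
  refine simplex_ext ?_ ?_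
  · intro i
    have h1 := h i
    rw [Kp_obj]
    revert h1
    generalize F.obj i = x
    intro h1
    cases p <;> cases x <;> first | rfl | exact absurd rfl h1
  · intro i j h
    exact vmap_Kp p F i j h

theorem Av.δ {p : Bool} {n : ℕ} {F : (nerve (Susp G)) _⦋n + 1⦌} (h : Av p F) (i : Fin (n + 2)) :
    Av p ((nerve (Susp G)).δ i F) := fun _ => h _

theorem Av_or {n : ℕ} (F : (nerve (Susp G)) _⦋n⦌) : Av false F ∨ Av true F := by
  by_contra hcon
  rw [not_or] at hcon
  obtain ⟨h1, h2⟩ := hcon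
  simp only [Av, not_forall, not_not] at h1 h2
  obtain ⟨i, hi⟩ := h1
  obtain ⟨j, hj⟩ := h2
  have key : ∀ {x y : Susp G}, (x ⟶ y) → x = pole G (!false) → y = pole G (!true) → False := by
    intro x y f
    refine hom_cases (motive := fun {x y} _ => x = pole G (!false) → y = pole G (!true) → False)
      ?_ ?_ ?_ ?_ ?_ f <;> intros <;> contradiction
  have key' : ∀ {x y : Susp G}, (x ⟶ y) → x = pole G (!true) → y = pole G (!false) → False := by
    intro x y f
    refine hom_cases (motive := fun {x y} _ => x = pole G (!true) → y = pole G (!false) → False)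
      ?_ ?_ ?_ ?_ ?_ f <;> intros <;> contradiction
  rcases le_total i j with h | h
  · exact key (F.map (homOfLE h)) hi hj
  · exact key' (F.map (homOfLE h)) hj hi

end Vale.Agent.P178.H676
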